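import Vale.Agent.P178.H3Main

namespace Vale.Agent.Results.P178.GerstenSteinberg

open Vale.Agent.P178

theorem result : ∃ (A : Type) (_ : CommRing A) (_ : IsRegularLocalRing A) (_ : IsDomain A),
    ¬ Function.Injective (kThreeMap (algebraMap A (FractionRing A))) := by
  obtain ⟨d⟩ := exists_ringData
  exact ⟨d.A, inferInstance, inferInstance, inferInstance, kThree_not_injective d⟩

end Vale.Agent.Results.P178.GerstenSteinberg
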